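import Mathlib

set_option autoImplicit false

namespace Crest.Agent.R92

open Filter Real Topology Set

/-- a finite family of scalar constraints is preserved when active ones strictly decrease -/
lemma inv_family {J : Type*} (F : Set J) (hF : F.Finite) (g g' : J → ℝ → ℝ) (a : ℝ)
    (hc : ∀ j ∈ F, ContinuousOn (g j) (Ici a))
    (hd : ∀ j ∈ F, ∀ t, a ≤ t → HasDerivWithinAt (g j) (g' j t) (Ici t) t)
    (hneg : ∀ t, a ≤ t → (∀ j ∈ F, g j t ≤ 0) → ∀ j ∈ F, g j t = 0 → g' j t < 0)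
    (h0 : ∀ j ∈ F, g j a ≤ 0) : ∀ t, a ≤ t → ∀ j ∈ F, g j t ≤ 0 := by
  intro b hb
  let s : Set ℝ := {t | ∀ j ∈ F, g j t ≤ 0}
  have hs : IsClosed (s ∩ Icc a b) := by
    have : s ∩ Icc a b = Icc a b ∩ ⋂ j ∈ F, (Icc a b ∩ g j ⁻¹' Iic 0) := by
      ext t
      simp only [s, mem_inter_iff, mem_ofPred_eq, mem_iInter, mem_preimage, mem_Iic]
      constructor
      · rintro ⟨h1, h2⟩; exact ⟨h2, fun j hj => ⟨h2, h1 j hj⟩⟩
      · rintro ⟨h1, h2⟩; exact ⟨fun j hj => (h2 j hj).2, h1⟩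
    rw [this]
    refine isClosed_Icc.inter (isClosed_biInter fun j hj => ?_)
    exact ((hc j hj).mono Icc_subset_Ici_self).preimage_isClosed_of_isClosed isClosed_Icc
      isClosed_Iic
  refine hs.Icc_subset_of_forall_mem_nhdsWithin h0 ?_ ⟨hb, le_rfl⟩
  rintro t ⟨hts, hat, -⟩
  have : ∀ᶠ u in 𝓝[>] t, ∀ j ∈ F, g j u ≤ 0 := by
    rw [eventually_all_finite hF]
    intro j hj
    have hder := (hd j hj t hat).mono (Ioi_subset_Ici_self)
    rcases (hts j hj).lt_or_eq with hlt | heq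
    · have := hder.continuousWithinAt.eventually_lt (continuousWithinAt_const (b := (0 : ℝ))) hlt
      filter_upwards [this] with u hu using hu.le
    · have hn := hneg t hat hts j hj heq
      rw [hasDerivWithinAt_iff_tendsto_slope' (by simp)] at hder
      filter_upwards [hder.eventually_lt_const hn, self_mem_nhdsWithin] with u hu hut
      rw [slope_def_field, heq, sub_zero] at hu
      have hpos : 0 < u - t := sub_pos.2 hut
      rcases div_neg_iff.1 hu with h | h
      · linarith [h.2]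
      · exact h.1.le
  exact this

lemma inv_single (g g' : ℝ → ℝ) (a : ℝ) (hc : ContinuousOn g (Ici a))
    (hd : ∀ t, a ≤ t → HasDerivWithinAt g (g' t) (Ici t) t)
    (hneg : ∀ t, a ≤ t → g t = 0 → g' t < 0) (h0 : g a ≤ 0) : ∀ t, a ≤ t → g t ≤ 0 := by
  intro t ht
  exact inv_family (univ : Set Unit) finite_univ (fun _ => g) (fun _ => g') a (fun _ _ => hc)
    (fun _ _ => hd) (fun t ht _ _ _ h => hneg t ht h) (fun _ _ => h0) t ht () trivial

lemma eventually_nonpos (g g' : ℝ → ℝ) (a κ : ℝ) (hκ : 0 < κ) (hc : ContinuousOn g (Ici a))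
    (hd : ∀ t, a ≤ t → HasDerivWithinAt g (g' t) (Ici t) t)
    (hneg : ∀ t, a ≤ t → 0 ≤ g t → g' t ≤ -κ) : ∀ᶠ t in atTop, g t ≤ 0 := by
  have hex : ∃ T, a ≤ T ∧ g T ≤ 0 := by
    by_contra hcon
    push Not at hcon
    have h1 := inv_single (fun t => g t - g a + κ / 2 * (t - a)) (fun t => g' t + κ / 2) a
      (by fun_prop)
      (fun t ht => by
        have h2 : HasDerivWithinAt (fun t => κ / 2 * (t - a)) (κ / 2) (Ici t) t := by
          simpa using ((hasDerivWithinAt_id t (Ici t)).sub_const a).const_mul (κ / 2)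
        exact ((hd t ht).sub_const (g a)).add h2)
      (fun t ht _ => by linarith [hneg t ht (hcon t ht).le]) (by simp)
    have hga := hcon a le_rfl
    have h3 := h1 (a + 2 * g a / κ) (by have : 0 ≤ 2 * g a / κ := by positivity
                                        linarith)
    have h4 := hcon (a + 2 * g a / κ) (by have : 0 ≤ 2 * g a / κ := by positivity
                                          linarith)
    have e : κ / 2 * (a + 2 * g a / κ - a) = g a := by field_simp; ring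
    linarith
  obtain ⟨T, hT, hgT⟩ := hex
  filter_upwards [eventually_ge_atTop T] with t ht
  exact inv_single g g' T (hc.mono (Ici_subset_Ici.2 hT)) (fun t ht => hd t (hT.trans ht))
    (fun t ht h => by linarith [hneg t (hT.trans ht) h.ge]) hgT t ht

/-- global forward solutions of bounded Lipschitz fields -/
lemma exists_global {E : Type*} [NormedAddCommGroup E] [NormedSpace ℝ E] [CompleteSpace E]
    (g : E → E) (K L : NNReal) (hK : LipschitzWith K g) (hL : ∀ x, ‖g x‖ ≤ L) (x₀ : E) :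
    ∃ x : ℝ → E, x 0 = x₀ ∧ ∀ t, 0 ≤ t → HasDerivWithinAt x (g (x t)) (Ici 0) t := by
  have h : ∀ n : ℕ, ∃ α : ℝ → E, α 0 = x₀ ∧
      ∀ t ∈ Icc (0 : ℝ) n, HasDerivWithinAt α (g (α t)) (Icc (0 : ℝ) n) t := by
    intro n
    have hp : IsPicardLindelof (fun _ : ℝ => g) (tmin := 0) (tmax := n)
        ⟨0, left_mem_Icc.2 (Nat.cast_nonneg n)⟩ x₀ (L * n) 0 L K := by
      apply IsPicardLindelof.of_time_independent (fun x _ => hL x) hK.lipschitzOnWith
      simp
    exact hp.exists_eq_forall_mem_Icc_hasDerivWithinAt₀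
  choose α hα0 hα using h
  have hright : ∀ n : ℕ, ∀ t ∈ Ico (0 : ℝ) n, HasDerivWithinAt (α n) (g (α n t)) (Ici t) t := by
    intro n t ht
    refine (hα n t (Ico_subset_Icc_self ht)).mono_of_mem_nhdsWithin ?_
    exact mem_of_superset (Icc_mem_nhdsGE ht.2) (Icc_subset_Icc_left ht.1)
  have hcont : ∀ n : ℕ, ContinuousOn (α n) (Icc (0 : ℝ) n) := fun n t ht =>
    (hα n t ht).continuousWithinAt
  have huniq : ∀ n m : ℕ, n ≤ m → EqOn (α n) (α m) (Icc (0 : ℝ) n) := by
    intro n m hnm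
    have hnm' : (n : ℝ) ≤ m := Nat.cast_le.2 hnm
    exact ODE_solution_unique (v := fun _ => g) (K := K) (fun _ => hK) (hcont n) (hright n)
      ((hcont m).mono (Icc_subset_Icc_right hnm'))
      (fun t ht => hright m t ⟨ht.1, ht.2.trans_le hnm'⟩) (by rw [hα0, hα0])
  refine ⟨fun t => α ⌈t⌉₊ t, hα0 _, fun t ht => ?_⟩
  set m : ℕ := ⌈t⌉₊ + 1 with hm
  have htm : t < m := by
    rw [hm]; push_cast; linarith [Nat.le_ceil t]
  have heq : ∀ u ∈ Icc (0 : ℝ) m, α ⌈u⌉₊ u = α m u := fun u hu =>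
    huniq _ _ (Nat.ceil_le.2 hu.2) ⟨hu.1, Nat.le_ceil u⟩
  have h1 : HasDerivWithinAt (fun t => α ⌈t⌉₊ t) (g (α m t)) (Icc (0 : ℝ) m) t :=
    (hα m t ⟨ht, htm.le⟩).congr heq (heq t ⟨ht, htm.le⟩)
  rw [← heq t ⟨ht, htm.le⟩] at h1
  refine h1.mono_of_mem_nhdsWithin ?_
  rw [← Ici_inter_Iic]
  exact inter_mem_nhdsWithin _ (Iic_mem_nhds htm)

end Crest.Agent.R92
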