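import Mathlib

/-!
Construction of a one-parameter family of polytopes in the positive orthant whose facets sit, in
logarithmic coordinates, close to their own normal vectors.
-/

set_option autoImplicit false

namespace Crest.Agent.R92

open Filter Real Topology

variable {ι : Type*} [Fintype ι] [DecidableEq ι]

/-- A candidate: a normal vector and an offset depending on the scale parameter. -/
abbrev Cand (ι : Type*) := (ι → ℝ) × (ℝ → ℝ)

/-- relative affine function of a candidate -/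
def ell (I : Finset ι) (a : ℝ) (c : Cand ι) (s : ℝ) (x : ι → ℝ) : ℝ :=
  ∑ i ∈ I, (c.1 i - a) * x i + c.2 s

def Box (I : Finset ι) (q : ι → ℝ) (η s : ℝ) (x : ι → ℝ) : Prop :=
  ∀ i, i ∉ I → exp (s * (q i - η)) ≤ x i ∧ x i ≤ exp (s * (q i + η))

def Low (s : ℝ) (x : ι → ℝ) : Prop := ∀ i, exp (s * (-1)) ≤ x i

def Adm (I : Finset ι) (q : ι → ℝ) (F : Set (Cand ι)) : Prop :=
  F.Finite ∧ ∀ c ∈ F, (∀ i, i ∉ I → c.1 i = q i) ∧ Continuous c.2

def Act (I : Finset ι) (a : ℝ) (F : Set (Cand ι)) (c : Cand ι) (s : ℝ) (x : ι → ℝ) : Prop :=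
  ∀ c' ∈ F, ell I a c' s x ≤ ell I a c s x

/-- range structure -/
def RS (Good : (ι → ℝ) → (ι → ℝ) → Prop) (I : Finset ι) (q : ι → ℝ) (a b : ℝ) : Prop :=
  ∃ F : Set (Cand ι), Adm I q F ∧ ∃ η : ℝ, 0 < η ∧ ∃ κ : ℝ, 0 < κ ∧ ∃ C : ℝ,
    (∃ c ∈ F, ∀ s x, ell I a c s x = κ * (exp (s * b) - ∑ i ∈ I, x i)) ∧
    (∀ᶠ s in atTop, ∀ c ∈ F, ∀ x : ι → ℝ, (∀ i, 0 ≤ x i) →
      ell I a c s x ≤ C * exp (s * b) - κ * ∑ i ∈ I, x i) ∧
    (∀ᶠ s in atTop, ∀ x : ι → ℝ, Low s x → Box I q η s x → ∀ c ∈ F, Act I a F c s x →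
      0 ≤ ell I a c s x → Good c.1 x)

/-- tag structure -/
def AS (Good : (ι → ℝ) → (ι → ℝ) → Prop) (I : Finset ι) (q : ι → ℝ) (a : ℝ) : Prop :=
  ∃ F : Set (Cand ι), Adm I q F ∧ ∃ η : ℝ, 0 < η ∧
    (∃ c ∈ F, ∀ s x, ell I a c s x = 0) ∧
    (∀ᶠ s in atTop, ∀ c ∈ F, ∀ x : ι → ℝ, (∀ i, 0 ≤ x i) →
      ell I a c s x ≤ exp (s * (a - 2 * η))) ∧
    (∀ᶠ s in atTop, ∀ x : ι → ℝ, Low s x → Box I q η s x →
      exp (s * (a - η)) ≤ ∑ i ∈ I, x i → ∑ i ∈ I, x i ≤ exp (s * (a + η)) →
      ∀ c ∈ F, Act I a F c s x → Good c.1 x)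

/-- intermediate stage of the tag structure -/
def Psi (Good : (ι → ℝ) → (ι → ℝ) → Prop) (I : Finset ι) (q : ι → ℝ) (a : ℝ) (k : ℕ) : Prop :=
  ∃ F : Set (Cand ι), Adm I q F ∧ ∃ η : ℝ, 0 < η ∧ ∃ β b : ℝ, β < b ∧ b < a ∧
    (∃ c ∈ F, ∀ s x, ell I a c s x = 0) ∧
    (∀ᶠ s in atTop, ∀ c ∈ F, ∀ x : ι → ℝ, (∀ i, 0 ≤ x i) → ell I a c s x ≤ exp (s * β)) ∧
    (∀ᶠ s in atTop, ∀ x : ι → ℝ, Low s x → Box I q η s x →
      ∑ i ∈ I, x i ≤ exp (s * (a + η)) →
      (∀ J : Finset ι, J ⊆ I → J.card = k → exp (s * b) ≤ ∑ i ∈ J, x i) →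
      ∀ c ∈ F, Act I a F c s x → Good c.1 x)

lemma ev_lt {α β : ℝ} (h : α < β) (C : ℝ) :
    ∀ᶠ s in atTop, C * exp (s * α) < exp (s * β) := by
  have h1 : Tendsto (fun s : ℝ => exp (s * (β - α))) atTop atTop :=
    tendsto_exp_atTop.comp (tendsto_id.atTop_mul_const (sub_pos.2 h))
  filter_upwards [h1.eventually_gt_atTop C] with s hs
  have : exp (s * β) = exp (s * (β - α)) * exp (s * α) := by
    rw [← exp_add]; congr 1; ring
  rw [this]
  exact mul_lt_mul_of_pos_right hs (exp_pos _)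

lemma exp_mono {s α β : ℝ} (hs : 0 ≤ s) (h : α ≤ β) : exp (s * α) ≤ exp (s * β) :=
  exp_le_exp.2 (mul_le_mul_of_nonneg_left h hs)

lemma exists_pos_le {T : Type*} [Finite T] (f : T → ℝ) (hf : ∀ j, 0 < f j) :
    ∃ η : ℝ, 0 < η ∧ ∀ j, η ≤ f j := by
  have h : ∀ᶠ η in 𝓝[>] (0 : ℝ), ∀ j, η ≤ f j := by
    rw [eventually_all]
    intro j
    exact mem_nhdsWithin_of_mem_nhds (Iic_mem_nhds (hf j))
  obtain ⟨η, h1, h2⟩ := (h.and self_mem_nhdsWithin).exists
  exact ⟨η, h2, h1⟩

omit [Fintype ι] [DecidableEq ι] in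
lemma Box.mono {I : Finset ι} {q : ι → ℝ} {η η' s : ℝ} {x : ι → ℝ} (h : Box I q η s x)
    (hs : 0 ≤ s) (hη : η ≤ η') : Box I q η' s x := fun i hi =>
  ⟨(exp_mono hs (by linarith)).trans (h i hi).1, (h i hi).2.trans (exp_mono hs (by linarith))⟩

omit [Fintype ι] [DecidableEq ι] in
lemma Low.nonneg {s : ℝ} {x : ι → ℝ} (h : Low s x) : ∀ i, 0 ≤ x i := fun i =>
  (exp_pos _).le.trans (h i)

omit [Fintype ι] in
lemma ell_sub {I J : Finset ι} (hJ : J ⊆ I) {q : ι → ℝ} {a : ℝ} {c : Cand ι}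
    (hc : ∀ i, i ∉ J → c.1 i = if i ∈ I then a else q i) (s : ℝ) (x : ι → ℝ) :
    ell I a c s x = ell J a c s x := by
  unfold ell
  congr 1
  symm
  apply Finset.sum_subset hJ
  intro i hi hiJ
  rw [hc i hiJ, if_pos hi]; simp

omit [Fintype ι] in
lemma psi_zero (Good : (ι → ℝ) → (ι → ℝ) → Prop) (I : Finset ι) (q : ι → ℝ) (a : ℝ) :
    Psi Good I q a 0 := by
  have h0 : ∀ s x, ell I a ((fun i => if i ∈ I then a else q i), (fun _ => 0)) s x = 0 := by
    intro s x
    unfold ell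
    rw [Finset.sum_eq_zero]
    · simp
    · intro i hi; simp [hi]
  refine ⟨{((fun i => if i ∈ I then a else q i), (fun _ => 0))}, ⟨Set.finite_singleton _, ?_⟩,
    1, one_pos, a - 2, a - 1, by linarith, by linarith, ⟨_, rfl, h0⟩, ?_, ?_⟩
  · rintro c rfl
    exact ⟨fun i hi => by simp [hi], continuous_const⟩
  · refine Eventually.of_forall ?_
    rintro s c rfl x _
    rw [h0]; exact (exp_pos _).le
  · refine Eventually.of_forall ?_
    intro s x _ _ _ hJ
    have := hJ ∅ (Finset.empty_subset _) rfl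
    simp only [Finset.sum_empty] at this
    exact absurd this (not_le.2 (exp_pos _))

lemma psi_succ (Good : (ι → ℝ) → (ι → ℝ) → Prop) (I : Finset ι) (q : ι → ℝ) (a : ℝ) (k : ℕ)
    (hR : ∀ J : Finset ι, J ⊆ I → J.card = k → ∀ q a b, b < a → RS Good J q a b)
    (h : Psi Good I q a k) : Psi Good I q a (k + 1) := by
  obtain ⟨F, ⟨hFfin, hF⟩, η, hη, β, b, hβ, hb, ⟨c0, hc0F, hc0⟩, hbd, hgood⟩ := h
  set q' : ι → ℝ := fun i => if i ∈ I then a else q i with hq'
  set b' : ℝ := (b + a) / 2 with hb'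
  have hbb' : b < b' := by rw [hb']; linarith
  have hb'a : b' < a := by rw [hb']; linarith
  let T := {J : Finset ι // J ⊆ I ∧ J.card = k}
  have hT : ∀ J : T, RS Good J.1 q' a b' := fun J => hR J.1 J.2.1 J.2.2 q' a b' hb'a
  choose G hG ηG hηG κ hκ C hlow hup hgd using hT
  obtain ⟨η₁, hη₁, hη₁le⟩ := exists_pos_le ηG hηG
  set η₂ : ℝ := min η η₁ with hη₂
  have hη₂pos : 0 < η₂ := lt_min hη hη₁
  set β' : ℝ := (b' + a) / 2 with hβ'
  have hb'β' : b' < β' := by rw [hβ']; linarith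
  have hβ'a : β' < a := by rw [hβ']; linarith
  set bn : ℝ := max ((β' + a) / 2) (a - η₁ / 2) with hbn
  have hbn1 : β' < bn := lt_of_lt_of_le (by linarith) (le_max_left _ _)
  have hbn2 : bn < a := max_lt (by linarith) (by linarith)
  have hbn3 : a - η₁ < bn := lt_of_lt_of_le (by linarith) (le_max_right _ _)
  have hsub : ∀ J : T, ∀ c ∈ G J, ∀ s x, ell I a c s x = ell J.1 a c s x := by
    intro J c hc s x
    exact ell_sub J.2.1 (q := q) ((hG J).2 c hc).1 s x
  refine ⟨F ∪ ⋃ J : T, G J, ⟨hFfin.union (Set.finite_iUnion fun J => (hG J).1), ?_⟩,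
    η₂, hη₂pos, β', bn, hbn1, hbn2, ⟨c0, Or.inl hc0F, hc0⟩, ?_, ?_⟩
  · rintro c (hc | hc)
    · exact hF c hc
    · obtain ⟨J, hJ⟩ := Set.mem_iUnion.1 hc
      refine ⟨fun i hi => ?_, ((hG J).2 c hJ).2⟩
      rw [((hG J).2 c hJ).1 i (fun h => hi (J.2.1 h))]
      simp [hq', hi]
  · filter_upwards [hbd, eventually_all.2 hup, eventually_ge_atTop 0,
      eventually_all.2 (fun J : T => ev_lt hb'β' (C J))] with s h1 h2 hs h3
    rintro c (hc | hc) x hx
    · exact (h1 c hc x hx).trans (exp_mono hs (by linarith))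
    · obtain ⟨J, hJ⟩ := Set.mem_iUnion.1 hc
      rw [hsub J c hJ]
      have h4 := h2 J c hJ x hx
      have h5 : 0 ≤ κ J * ∑ i ∈ J.1, x i :=
        mul_nonneg (hκ J).le (Finset.sum_nonneg fun i _ => hx i)
      have h6 := h3 J
      linarith
  · filter_upwards [hbd, hgood, eventually_all.2 hup, eventually_all.2 hgd, eventually_ge_atTop 0,
      eventually_all.2 (fun J : T => ev_lt (hβ.trans hbb') (2 / κ J)), ev_lt hbb' 2,
      eventually_all.2 (fun J : T => ev_lt (hb'β'.trans hbn1) (2 * (C J / κ J))),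
      ev_lt hbn3 2] with s h1 h2 h3 h4 hs h5 h6 h7 h8
    intro x hL hB hX hJ c hc hact
    have hx := hL.nonneg
    have hc_nonneg : 0 ≤ ell I a c s x := by
      have := hact c0 (Or.inl hc0F); rwa [hc0] at this
    rcases hc with hc | hc
    · refine h2 x hL (hB.mono hs (min_le_left _ _))
        (hX.trans (exp_mono hs (by linarith [min_le_left η η₁]))) ?_ c hc
        (fun c' hc' => hact c' (Or.inl hc'))
      intro J hJI hJk
      by_contra hlt
      push Not at hlt
      obtain ⟨c1, hc1, hc1e⟩ := hlow ⟨J, hJI, hJk⟩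
      have h9 := hact c1 (Or.inr (Set.mem_iUnion.2 ⟨_, hc1⟩))
      rw [hsub _ c1 hc1, hc1e] at h9
      have h10 := h1 c hc x hx
      have h11 := h5 ⟨J, hJI, hJk⟩
      have hk := hκ ⟨J, hJI, hJk⟩
      set κ0 := κ ⟨J, hJI, hJk⟩
      have h12 : 2 * exp (s * β) < κ0 * exp (s * b') := by
        have := mul_lt_mul_of_pos_left h11 hk
        have e : κ0 * (2 / κ0 * exp (s * β)) = 2 * exp (s * β) := by field_simp
        linarith
      have h13 : κ0 * (exp (s * b') / 2) ≤ κ0 * (exp (s * b') - ∑ i ∈ J, x i) :=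
        mul_le_mul_of_nonneg_left (by linarith) hk.le
      simp only at h9
      linarith
    · obtain ⟨J, hcJ⟩ := Set.mem_iUnion.1 hc
      have hk := hκ J
      have hnn : 0 ≤ ell J.1 a c s x := by rw [← hsub J c hcJ]; exact hc_nonneg
      refine h4 J x hL ?_ c hcJ ?_ hnn
      · intro i hi
        by_cases hiI : i ∈ I
        · have hq'i : q' i = a := by simp [hq', hiI]
          rw [hq'i]
          have hle : η₁ ≤ ηG J := hη₁le J
          constructor
          · have h9 := hJ (insert i J.1) (Finset.insert_subset hiI J.2.1)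
              (by rw [Finset.card_insert_of_notMem hi, J.2.2])
            rw [Finset.sum_insert hi] at h9
            have h10 := h3 J c hcJ x hx
            have h11 : ∑ i ∈ J.1, x i ≤ C J / κ J * exp (s * b') := by
              rw [div_mul_eq_mul_div, le_div_iff₀ hk]; linarith
            have h12 := h7 J
            have h13 : exp (s * (a - ηG J)) ≤ exp (s * (a - η₁)) := exp_mono hs (by linarith)
            linarith
          · have h9 : x i ≤ ∑ i ∈ I, x i := Finset.single_le_sum (fun j _ => hx j) hiI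
            refine h9.trans (hX.trans (exp_mono hs ?_))
            linarith [min_le_right η η₁]
        · have hq'i : q' i = q i := by simp [hq', hiI]
          rw [hq'i]
          exact (hB.mono hs ((min_le_right _ _).trans (hη₁le J))) i hiI
      · intro c' hc'
        rw [← hsub J c hcJ, ← hsub J c' hc']
        exact hact c' (Or.inr (Set.mem_iUnion.2 ⟨J, hc'⟩))

lemma as_of_rs (Good : (ι → ℝ) → (ι → ℝ) → Prop) (I : Finset ι)
    (hR : ∀ J : Finset ι, J ⊂ I → ∀ q a b, b < a → RS Good J q a b) (q : ι → ℝ) (a : ℝ) :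
    AS Good I q a := by
  have hpsi : ∀ k, k ≤ I.card → Psi Good I q a k := by
    intro k
    induction k with
    | zero => intro _; exact psi_zero Good I q a
    | succ k ih =>
      intro hk
      refine psi_succ Good I q a k ?_ (ih (by omega))
      intro J hJ hJk
      refine hR J ⟨hJ, fun h => ?_⟩
      have := Finset.card_le_card h
      omega
  obtain ⟨F, hF, η, hη, β, b, hβ, hb, hc0, hbd, hgood⟩ := hpsi I.card le_rfl
  refine ⟨F, hF, min η ((a - b) / 2), lt_min hη (by linarith), hc0, ?_, ?_⟩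
  · filter_upwards [hbd, eventually_ge_atTop 0] with s h1 hs
    intro c hc x hx
    exact (h1 c hc x hx).trans (exp_mono hs (by linarith [min_le_right η ((a - b) / 2)]))
  · filter_upwards [hgood, eventually_ge_atTop 0] with s h1 hs
    intro x hL hB hX1 hX2 c hc hact
    refine h1 x hL (hB.mono hs (min_le_left _ _))
      (hX2.trans (exp_mono hs (by linarith [min_le_left η ((a - b) / 2)]))) ?_ c hc hact
    intro J hJ hJk
    have : J = I := Finset.eq_of_subset_of_card_le hJ hJk.ge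
    rw [this]
    exact (exp_mono hs (by linarith [min_le_right η ((a - b) / 2)])).trans hX1

/-- shifting a candidate to a new reference value -/
noncomputable def shift (κ b : ℝ) (c : Cand ι) : Cand ι := (c.1, fun s => c.2 s + κ * exp (s * b))

omit [Fintype ι] [DecidableEq ι] in
lemma ell_shift (I : Finset ι) (a a' b : ℝ) (c : Cand ι) (s : ℝ) (x : ι → ℝ) :
    ell I a (shift (a - a') b c) s x =
      ell I a' c s x + (a - a') * (exp (s * b) - ∑ i ∈ I, x i) := by
  unfold ell shift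
  simp only
  rw [mul_sub, Finset.mul_sum]
  have : ∑ i ∈ I, (c.1 i - a) * x i = ∑ i ∈ I, (c.1 i - a') * x i - ∑ i ∈ I, (a - a') * x i := by
    rw [← Finset.sum_sub_distrib]
    exact Finset.sum_congr rfl fun i _ => by ring
  rw [this]; ring

omit [Fintype ι] [DecidableEq ι] in
lemma rs_step (Good : (ι → ℝ) → (ι → ℝ) → Prop) (I : Finset ι) (q : ι → ℝ) (a' : ℝ)
    (hA : AS Good I q a') : ∃ η : ℝ, 0 < η ∧ ∀ b', a' - η < b' → b' < a' → RS Good I q a' b' →
      ∀ b, a' ≤ b → b < a' + η → ∀ a, b < a → RS Good I q a b := by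
  obtain ⟨F, ⟨hFfin, hF⟩, η, hη, ⟨c0, hc0F, hc0⟩, hbd, hgood⟩ := hA
  refine ⟨η, hη, ?_⟩
  intro b' hb'1 hb'2 hR b hb1 hb2 a ha
  obtain ⟨G, ⟨hGfin, hG⟩, η', hη', κ, hκ, C, ⟨c1, hc1G, hc1⟩, hup, hgd⟩ := hR
  have hκ' : 0 < a - a' := by linarith
  refine ⟨shift (a - a') b '' (G ∪ F), ⟨(hGfin.union hFfin).image _, ?_⟩, min η η',
    lt_min hη hη', a - a', hκ', (a - a') + |C| + 1, ⟨_, ⟨c0, Or.inr hc0F, rfl⟩, ?_⟩, ?_, ?_⟩
  · rintro _ ⟨c, hc, rfl⟩
    have : (∀ i, i ∉ I → c.1 i = q i) ∧ Continuous c.2 := by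
      rcases hc with hc | hc
      · exact hG c hc
      · exact hF c hc
    refine ⟨this.1, ?_⟩
    have h2 := this.2
    unfold shift
    fun_prop
  · intro s x
    rw [ell_shift, hc0]; ring
  · filter_upwards [hbd, hup, eventually_ge_atTop 0] with s h1 h2 hs
    rintro _ ⟨c, hc, rfl⟩ x hx
    rw [ell_shift]
    have hE := exp_pos (s * b)
    have hC : 0 ≤ |C| * exp (s * b) := by positivity
    rcases hc with hc | hc
    · have h3 := h2 c hc x hx
      have h5 : 0 ≤ κ * ∑ i ∈ I, x i := mul_nonneg hκ.le (Finset.sum_nonneg fun i _ => hx i)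
      have h6 : C * exp (s * b') ≤ |C| * exp (s * b) :=
        mul_le_mul (le_abs_self C) (exp_mono hs (by linarith)) (exp_pos _).le (abs_nonneg C)
      nlinarith
    · have h3 := h1 c hc x hx
      have h6 : exp (s * (a' - 2 * η)) ≤ exp (s * b) := exp_mono hs (by linarith)
      nlinarith
  · filter_upwards [hbd, hgood, hgd, eventually_ge_atTop 0,
      ev_lt (show a' - 2 * η < a' + η by linarith) (2 / (a - a')), ev_lt hb2 2,
      ev_lt (show a' - 2 * η < b' by linarith) (2 / κ), ev_lt hb'1 2] with s h1 h2 h3 hs h4 h5 h6 h7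
    rintro x hL hB _ ⟨c, hc, rfl⟩ hact hnn
    have hx := hL.nonneg
    have hact' : ∀ c' ∈ G ∪ F, ell I a' c' s x ≤ ell I a' c s x := by
      intro c' hc'
      have := hact _ ⟨c', hc', rfl⟩
      rw [ell_shift, ell_shift] at this
      linarith
    rcases hc with hc | hc
    · refine h3 x hL (hB.mono hs (min_le_right _ _)) c hc (fun c' hc' => hact' c' (Or.inl hc')) ?_
      have := hact' c0 (Or.inr hc0F)
      rwa [hc0] at this
    · have h8 := h1 c hc x hx
      refine h2 x hL (hB.mono hs (min_le_left _ _)) ?_ ?_ c hc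
        (fun c' hc' => hact' c' (Or.inr hc'))
      · by_contra hlt
        push Not at hlt
        have h9 := hact' c1 (Or.inl hc1G)
        rw [hc1] at h9
        have h12 : 2 * exp (s * (a' - 2 * η)) < κ * exp (s * b') := by
          have := mul_lt_mul_of_pos_left h6 hκ
          have e : κ * (2 / κ * exp (s * (a' - 2 * η))) = 2 * exp (s * (a' - 2 * η)) := by
            field_simp
          linarith
        have h13 : κ * (exp (s * b') / 2) ≤ κ * (exp (s * b') - ∑ i ∈ I, x i) :=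
          mul_le_mul_of_nonneg_left (by linarith) hκ.le
        linarith
      · rw [ell_shift] at hnn
        by_contra hlt
        push Not at hlt
        have h12 : 2 * exp (s * (a' - 2 * η)) < (a - a') * exp (s * (a' + η)) := by
          have := mul_lt_mul_of_pos_left h4 hκ'
          have e : (a - a') * (2 / (a - a') * exp (s * (a' - 2 * η))) =
              2 * exp (s * (a' - 2 * η)) := by field_simp
          linarith
        have h13 : (a - a') * (exp (s * (a' + η)) / 2) ≤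
            (a - a') * (∑ i ∈ I, x i - exp (s * b)) :=
          mul_le_mul_of_nonneg_left (by linarith) hκ'.le
        linarith

omit [Fintype ι] in
lemma rs_base (Good : (ι → ℝ) → (ι → ℝ) → Prop) (I : Finset ι) (hI : I.Nonempty) (q : ι → ℝ)
    (a b : ℝ) (hb : b < -1) (hba : b < a) : RS Good I q a b := by
  have h0 : ∀ s x, ell I a (shift (a - b) b ((fun i => if i ∈ I then b else q i), (fun _ => 0))) s x
      = (a - b) * (exp (s * b) - ∑ i ∈ I, x i) := by
    intro s x
    rw [ell_shift]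
    unfold ell
    rw [Finset.sum_eq_zero]
    · simp
    · intro i hi; simp [hi]
  refine ⟨{shift (a - b) b ((fun i => if i ∈ I then b else q i), (fun _ => 0))},
    ⟨Set.finite_singleton _, ?_⟩, 1, one_pos, a - b, by linarith, a - b, ⟨_, rfl, h0⟩, ?_, ?_⟩
  · rintro c rfl
    refine ⟨fun i hi => by simp [shift, hi], ?_⟩
    unfold shift
    fun_prop
  · refine Eventually.of_forall ?_
    rintro s c rfl x _
    rw [h0]; linarith
  · filter_upwards [ev_lt hb 1] with s hs
    rintro x hL _ c rfl _ hnn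
    exfalso
    rw [h0] at hnn
    obtain ⟨i, hi⟩ := hI
    have h9 : x i ≤ ∑ i ∈ I, x i := Finset.single_le_sum (fun j _ => hL.nonneg j) hi
    have h10 := hL i
    have : (a - b) * (exp (s * b) - ∑ i ∈ I, x i) < 0 :=
      mul_neg_of_pos_of_neg (by linarith) (by linarith)
    linarith

omit [Fintype ι] in
lemma rs_of_as (Good : (ι → ℝ) → (ι → ℝ) → Prop) (I : Finset ι) (hI : I.Nonempty) (q : ι → ℝ)
    (hA : ∀ a, AS Good I q a) : ∀ a b, b < a → RS Good I q a b := by
  let Φ : ℝ → Prop := fun b => ∀ a, b < a → RS Good I q a b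
  let T : Set ℝ := {b | ∀ b', b' < b → Φ b'}
  have hne : (-1 : ℝ) ∈ T := fun b' hb' a ha => rs_base Good I hI q a b' hb' ha
  have hunb : ¬ BddAbove T := by
    intro hbdd
    set β := sSup T with hβ
    have hlt : ∀ b', b' < β → Φ b' := by
      intro b' hb'
      obtain ⟨t, ht, hb't⟩ := exists_lt_of_lt_csSup ⟨_, hne⟩ hb'
      exact ht b' hb't
    obtain ⟨η, hη, hstep⟩ := rs_step Good I q β (hA β)
    have hmem : β + η ∈ T := by
      intro b hb
      rcases lt_or_ge b β with h | h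
      · exact hlt b h
      · exact hstep (β - η / 2) (by linarith) (by linarith)
          (hlt _ (by linarith) β (by linarith)) b h hb
    have := le_csSup hbdd hmem
    linarith
  intro a b hba
  rw [not_bddAbove_iff] at hunb
  obtain ⟨t, ht, hbt⟩ := hunb b
  exact ht b hbt a hba

lemma rs_all (Good : (ι → ℝ) → (ι → ℝ) → Prop)
    (hbase : ∀ p : ι → ℝ, ∃ η : ℝ, 0 < η ∧ ∀ᶠ s in atTop, ∀ x, Box ∅ p η s x → Good p x)
    (I : Finset ι) : ∀ q a b, b < a → RS Good I q a b := by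
  induction I using Finset.strongInduction with
  | H I ih =>
    intro q
    rcases I.eq_empty_or_nonempty with rfl | hI
    · intro a b _
      obtain ⟨η, hη, h⟩ := hbase q
      refine ⟨{(q, fun s => exp (s * b))}, ⟨Set.finite_singleton _, ?_⟩, η, hη, 1, one_pos, 1,
        ⟨_, rfl, ?_⟩, ?_, ?_⟩
      · rintro c rfl
        exact ⟨fun i _ => rfl, by fun_prop⟩
      · intro s x; simp [ell]
      · refine Eventually.of_forall ?_
        rintro s c rfl x _
        simp [ell]
      · filter_upwards [h] with s hs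
        rintro x _ hB c rfl _ _
        exact hs x hB
    · exact rs_of_as Good I hI q (as_of_rs Good I ih q)

lemma as_all (Good : (ι → ℝ) → (ι → ℝ) → Prop)
    (hbase : ∀ p : ι → ℝ, ∃ η : ℝ, 0 < η ∧ ∀ᶠ s in atTop, ∀ x, Box ∅ p η s x → Good p x)
    (I : Finset ι) (q : ι → ℝ) (a : ℝ) : AS Good I q a :=
  as_of_rs Good I (fun J _ => rs_all Good hbase J) q a

end Crest.Agent.R92
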