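import Crest.Agent.R92.Geo

set_option autoImplicit false

namespace Crest.Agent.R92

open Filter Real Topology

variable {ι : Type*} [Fintype ι] [DecidableEq ι]

/-- value of the constraint attached to a candidate -/
def val (c : Cand ι) (s : ℝ) (x : ι → ℝ) : ℝ := ∑ i, c.1 i * x i + c.2 s

omit [DecidableEq ι] in
lemma val_shift (I : Finset ι) (a : ℝ) (c : Cand ι) (hc : ∀ i, i ∉ I → c.1 i = (0 : ι → ℝ) i)
    (s : ℝ) (x : ι → ℝ) :
    val (shift (-a) a c) s x = a * (∑ i ∈ I, x i - exp (s * a)) + ell I a c s x := by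
  unfold val ell shift
  simp only
  have h1 : ∑ i, c.1 i * x i = ∑ i ∈ I, c.1 i * x i := by
    symm
    apply Finset.sum_subset (Finset.subset_univ I)
    intro i _ hi
    rw [hc i hi]; simp
  have h2 : ∑ i ∈ I, (c.1 i - a) * x i = ∑ i ∈ I, c.1 i * x i - a * ∑ i ∈ I, x i := by
    rw [Finset.mul_sum, ← Finset.sum_sub_distrib]
    exact Finset.sum_congr rfl fun i _ => by ring
  rw [h1, h2]; ring

lemma window {a η : ℝ} (ha : a ≠ 0) (hη : 0 < η) :
    ∀ᶠ s in atTop, ∀ X e : ℝ, 0 ≤ e → e ≤ exp (s * (a - 2 * η)) → a * (X - exp (s * a)) + e = 0 →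
      exp (s * (a - η)) ≤ X ∧ X ≤ exp (s * (a + η)) ∧ X ≤ 2 * exp (s * a) := by
  filter_upwards [ev_lt (show a - 2 * η < a by linarith) (2 / |a|),
    ev_lt (show a - η < a by linarith) 2, ev_lt (show a < a + η by linarith) 2] with s h1 h2 h3
  intro X e he0 he hX
  have hpos : 0 < |a| := abs_pos.2 ha
  have h4 : |a| * |X - exp (s * a)| = e := by
    rw [← abs_mul, show a * (X - exp (s * a)) = -e by linarith, abs_neg, abs_of_nonneg he0]
  have h5 : 2 * exp (s * (a - 2 * η)) < |a| * exp (s * a) := by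
    have := mul_lt_mul_of_pos_left h1 hpos
    have e : |a| * (2 / |a| * exp (s * (a - 2 * η))) = 2 * exp (s * (a - 2 * η)) := by field_simp
    linarith
  have h6 : |X - exp (s * a)| ≤ exp (s * a) / 2 := by
    by_contra hlt
    push Not at hlt
    have := mul_lt_mul_of_pos_left hlt hpos
    linarith
  have h7 := abs_le.1 h6
  have h8 := exp_pos (s * a)
  refine ⟨by linarith [h7.1], by linarith [h7.2], by linarith [h7.2]⟩

theorem geo (Good : (ι → ℝ) → (ι → ℝ) → Prop)
    (hbase : ∀ p : ι → ℝ, ∃ η : ℝ, 0 < η ∧ ∀ᶠ s in atTop, ∀ x, Box ∅ p η s x → Good p x) :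
    ∃ F : Set (Cand ι), F.Finite ∧ (∀ c ∈ F, Continuous c.2) ∧
      (∀ᶠ s in atTop, ∀ x : ι → ℝ, (∀ c ∈ F, val c s x ≤ 0) →
        ∀ i, exp (s * (-1)) ≤ x i ∧ x i ≤ exp (s * 1)) ∧
      (∀ x : ι → ℝ, (∀ i, 0 < x i) → ∀ᶠ s in atTop, ∀ c ∈ F, val c s x < 0) ∧
      (∀ᶠ s in atTop, ∀ x : ι → ℝ, (∀ c ∈ F, val c s x ≤ 0) →
        ∀ c ∈ F, val c s x = 0 → Good c.1 x) := by
  choose G hG η hη htriv hbd hgd using fun (I : Finset ι) (a : ℝ) => as_all Good hbase I 0 a
  choose m hm hmle using fun a : ℝ => exists_pos_le (fun I => η I a) (fun I => hη I a)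
  let N : ℕ → ℝ := fun k => Nat.rec 1 (fun _ n => min n (m (-n)) / 2) k
  have hN0 : N 0 = 1 := rfl
  have hNs : ∀ k, N (k + 1) = min (N k) (m (-N k)) / 2 := fun k => rfl
  have hNpos : ∀ k, 0 < N k := by
    intro k
    induction k with
    | zero => rw [hN0]; exact one_pos
    | succ k ih => rw [hNs]; exact half_pos (lt_min ih (hm _))
  have hNlt : ∀ k, N (k + 1) < N k := by
    intro k
    rw [hNs]; linarith [min_le_left (N k) (m (-N k)), hNpos k]
  have hNanti : StrictAnti N := strictAnti_nat_of_succ_lt hNlt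
  have hNm : ∀ k I, N (k + 1) < η I (-N k) := by
    intro k I
    rw [hNs]; linarith [min_le_right (N k) (m (-N k)), hm (-N k), hmle (-N k) I]
  have hN1 : ∀ k, N k ≤ 1 := fun k => hN0 ▸ hNanti.antitone (Nat.zero_le k)
  set T : ℝ := N (Fintype.card ι + 1) with hT
  have hTpos : 0 < T := hNpos (Fintype.card ι + 1)
  let P := {I : Finset ι // I.Nonempty}
  let a : P → ℝ := fun I => -N I.1.card
  have haneg : ∀ I : P, a I < 0 := fun I => neg_neg_of_pos (hNpos _)
  set F : Set (Cand ι) := (shift (-T) T '' G Finset.univ T) ∪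
    ⋃ I : P, shift (-a I) (a I) '' G I.1 (a I) with hF
  -- consequences of membership in the polytope
  have hupper : ∀ s x, (∀ c ∈ F, val c s x ≤ 0) → ∑ i, x i ≤ exp (s * T) := by
    intro s x hx
    obtain ⟨c, hc, hc0⟩ := htriv Finset.univ T
    have := hx _ (Or.inl ⟨c, hc, rfl⟩)
    rw [val_shift _ _ _ ((hG _ _).2 c hc).1, hc0] at this
    by_contra hlt
    push Not at hlt
    have := mul_pos hTpos (sub_pos.2 hlt)
    linarith
  have hlower : ∀ s x, (∀ c ∈ F, val c s x ≤ 0) → ∀ I : P, exp (s * a I) ≤ ∑ i ∈ I.1, x i := by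
    intro s x hx I
    obtain ⟨c, hc, hc0⟩ := htriv I.1 (a I)
    have := hx _ (Or.inr (Set.mem_iUnion.2 ⟨I, c, hc, rfl⟩))
    rw [val_shift _ _ _ ((hG _ _).2 c hc).1, hc0] at this
    by_contra hlt
    push Not at hlt
    have := mul_pos_of_neg_of_neg (haneg I) (sub_neg.2 hlt)
    linarith
  have hLow : ∀ s, 0 ≤ s → ∀ x, (∀ c ∈ F, val c s x ≤ 0) → Low s x := by
    intro s hs x hx i
    have := hlower s x hx ⟨{i}, Finset.singleton_nonempty i⟩
    simp only [Finset.sum_singleton] at this
    refine le_trans (exp_mono hs ?_) this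
    simp only [a]
    linarith [hN1 ({i} : Finset ι).card]
  refine ⟨F, ?_, ?_, ?_, ?_, ?_⟩
  · exact ((hG _ _).1.image _).union (Set.finite_iUnion fun I => (hG _ _).1.image _)
  · rintro c (⟨c, hc, rfl⟩ | hc)
    · have := ((hG _ _).2 c hc).2
      unfold shift; fun_prop
    · rw [Set.mem_iUnion] at hc
      obtain ⟨I, c, hc, rfl⟩ := hc
      have := ((hG _ _).2 c hc).2
      unfold shift; fun_prop
  · filter_upwards [eventually_ge_atTop 0] with s hs
    intro x hx i
    have hL := hLow s hs x hx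
    refine ⟨hL i, ?_⟩
    have h9 : x i ≤ ∑ i, x i :=
      Finset.single_le_sum (fun j _ => hL.nonneg j) (Finset.mem_univ i)
    exact h9.trans ((hupper s x hx).trans (exp_mono hs (hN1 (Fintype.card ι + 1))))
  · intro x hx
    have hx0 : ∀ i, 0 ≤ x i := fun i => (hx i).le
    have hsum : ∀ I : P, 0 < ∑ i ∈ I.1, x i := fun I => Finset.sum_pos (fun i _ => hx i) I.2
    filter_upwards [hbd Finset.univ T, eventually_all.2 (fun I : P => hbd I.1 (a I)),
      ev_lt hTpos (2 * ∑ i, x i),
      ev_lt (show T - 2 * η Finset.univ T < T by linarith [hη Finset.univ T]) (2 / T),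
      eventually_all.2 (fun I : P => ev_lt (haneg I) (2 / ∑ i ∈ I.1, x i)),
      eventually_all.2 (fun I : P => ev_lt
        (show a I - 2 * η I.1 (a I) < 0 by linarith [haneg I, hη I.1 (a I)])
        (2 / (-a I * ∑ i ∈ I.1, x i)))] with s h1 h2 h3 h4 h5 h6
    rintro c (⟨c, hc, rfl⟩ | hc)
    · rw [val_shift _ _ _ ((hG _ _).2 c hc).1]
      have h7 := h1 c hc x hx0
      simp only [mul_zero, exp_zero, mul_one] at h3
      have h8 := mul_lt_mul_of_pos_left h4 hTpos
      have e : T * (2 / T * exp (s * (T - 2 * η Finset.univ T))) =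
        2 * exp (s * (T - 2 * η Finset.univ T)) := by field_simp
      have h9 := mul_lt_mul_of_pos_left h3 hTpos
      linarith
    · rw [Set.mem_iUnion] at hc
      obtain ⟨I, c, hc, rfl⟩ := hc
      rw [val_shift _ _ _ ((hG _ _).2 c hc).1]
      have h7 := h2 I c hc x hx0
      have h8 := h5 I
      have h9 := h6 I
      simp only [mul_zero, exp_zero] at h8 h9
      have hS := hsum I
      have hA : 0 < -a I := neg_pos.2 (haneg I)
      set S := ∑ i ∈ I.1, x i
      have h10 : 2 * exp (s * a I) < S := by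
        have := mul_lt_mul_of_pos_left h8 hS
        have e : S * (2 / S * exp (s * a I)) = 2 * exp (s * a I) := by field_simp
        linarith
      have h11 : 2 * exp (s * (a I - 2 * η I.1 (a I))) < -a I * S := by
        have hAS := mul_pos hA hS
        have := mul_lt_mul_of_pos_left h9 hAS
        have e : -a I * S * (2 / (-a I * S) * exp (s * (a I - 2 * η I.1 (a I)))) =
          2 * exp (s * (a I - 2 * η I.1 (a I))) := by
            rw [← mul_assoc, mul_div_cancel₀ _ hAS.ne']
        linarith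
      have h12 := mul_lt_mul_of_pos_left h10 hA
      linarith
  · filter_upwards [eventually_ge_atTop 0, hbd Finset.univ T,
      eventually_all.2 (fun I : P => hbd I.1 (a I)), hgd Finset.univ T,
      eventually_all.2 (fun I : P => hgd I.1 (a I)), window hTpos.ne' (hη Finset.univ T),
      eventually_all.2 (fun I : P => window (haneg I).ne (hη I.1 (a I))),
      eventually_all.2 (fun I : P => ev_lt
        (show a I < -N (I.1.card + 1) by simp only [a]; linarith [hNlt I.1.card]) 4),
      eventually_all.2 (fun I : P => ev_lt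
        (show 0 - η I.1 (a I) < -N (I.1.card + 1) by
          simp only [a]; linarith [hNm I.1.card I.1]) 2)] with s hs h1 h2 h3 h4 h5 h6 h7 h8
    intro x hx
    have hL := hLow s hs x hx
    have hx0 := hL.nonneg
    rintro c (⟨c, hc, rfl⟩ | hc) hv
    · rw [val_shift _ _ _ ((hG _ _).2 c hc).1] at hv
      have hact : Act Finset.univ T (G Finset.univ T) c s x := by
        intro c' hc'
        have := hx _ (Or.inl ⟨c', hc', rfl⟩)
        rw [val_shift _ _ _ ((hG _ _).2 c' hc').1] at this
        linarith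
      have hnn : 0 ≤ ell Finset.univ T c s x := by
        obtain ⟨c0, hc0, hc0e⟩ := htriv Finset.univ T
        have := hact c0 hc0
        rwa [hc0e] at this
      obtain ⟨w1, w2, -⟩ := h5 _ _ hnn (h1 c hc x hx0) hv
      exact h3 x hL (fun i hi => absurd (Finset.mem_univ i) hi) w1 w2 c hc hact
    · rw [Set.mem_iUnion] at hc
      obtain ⟨I, c, hc, rfl⟩ := hc
      rw [val_shift _ _ _ ((hG _ _).2 c hc).1] at hv
      have hact : Act I.1 (a I) (G I.1 (a I)) c s x := by
        intro c' hc'
        have := hx _ (Or.inr (Set.mem_iUnion.2 ⟨I, c', hc', rfl⟩))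
        rw [val_shift _ _ _ ((hG _ _).2 c' hc').1] at this
        linarith
      have hnn : 0 ≤ ell I.1 (a I) c s x := by
        obtain ⟨c0, hc0, hc0e⟩ := htriv I.1 (a I)
        have := hact c0 hc0
        rwa [hc0e] at this
      obtain ⟨w1, w2, w3⟩ := h6 I _ _ hnn (h2 I c hc x hx0) hv
      refine h4 I x hL ?_ w1 w2 c hc hact
      intro i hi
      have hcard : (insert i I.1).card = I.1.card + 1 := Finset.card_insert_of_notMem hi
      constructor
      · have h9 := hlower s x hx ⟨insert i I.1, Finset.insert_nonempty _ _⟩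
        simp only [a] at h9
        rw [Finset.sum_insert hi, hcard] at h9
        have h10 := h7 I
        have h11 := h8 I
        simp only [Pi.zero_apply]
        linarith
      · have h9 : x i ≤ ∑ i, x i :=
          Finset.single_le_sum (fun j _ => hx0 j) (Finset.mem_univ i)
        refine h9.trans ((hupper s x hx).trans (exp_mono hs ?_))
        have h10 : I.1.card + 1 ≤ Fintype.card ι + 1 := by
          have := Finset.card_le_univ I.1
          omega
        have h11 := hNanti.antitone h10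
        have h12 := hNm I.1.card I.1
        simp only [Pi.zero_apply, a]
        linarith

end Crest.Agent.R92
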