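import Crest.Agent.R92.Geo2
import Crest.Prelude.Def_MassAction

set_option autoImplicit false

namespace Crest.Agent.R92

open Filter Real Topology Crest.AnalysisR.MassAction

variable {d : ℕ}

/-- pairing of a real vector with a complex -/
def dc (ν : Fin d → ℝ) (y : Fin d → ℕ) : ℝ := ∑ i, ν i * (y i : ℝ)

/-- monomial -/
def mon (x : Fin d → ℝ) (y : Fin d → ℕ) : ℝ := ∏ i, x i ^ (y i)

def Good (R : Network d) (M : ℝ) (ν x : Fin d → ℝ) : Prop :=
  ∀ r ∈ R, ∀ r' ∈ R, dc ν r'.1 < dc ν r.1 → M * mon x r'.1 ≤ mon x r.1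

lemma mon_pos {x : Fin d → ℝ} (hx : ∀ i, 0 < x i) (y : Fin d → ℕ) : 0 < mon x y :=
  Finset.prod_pos fun i _ => pow_pos (hx i) _

lemma exp_dc (s : ℝ) (ν : Fin d → ℝ) (y : Fin d → ℕ) :
    exp (s * dc ν y) = mon (fun i => exp (s * ν i)) y := by
  unfold dc mon
  rw [Finset.mul_sum, exp_sum]
  refine Finset.prod_congr rfl fun i _ => ?_
  rw [← exp_nat_mul]; congr 1; ring

lemma mon_le {x x' : Fin d → ℝ} (hx : ∀ i, 0 ≤ x i) (h : ∀ i, x i ≤ x' i) (y : Fin d → ℕ) :
    mon x y ≤ mon x' y :=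
  Finset.prod_le_prod (fun i _ => pow_nonneg (hx i) _)
    (fun i _ => pow_le_pow_left₀ (hx i) (h i) _)

lemma good_base (R : Network d) (M : ℝ) (hM : 0 ≤ M) (p : Fin d → ℝ) :
    ∃ η : ℝ, 0 < η ∧ ∀ᶠ s in atTop, ∀ x, Box ∅ p η s x → Good R M p x := by
  have h1 : ∀ᶠ η in 𝓝 (0 : ℝ), ∀ r ∈ R, ∀ r' ∈ R, dc p r'.1 < dc p r.1 →
      dc (fun i => p i + η) r'.1 < dc (fun i => p i - η) r.1 := by
    rw [eventually_all_finset]
    intro r _
    rw [eventually_all_finset]
    intro r' _
    by_cases h : dc p r'.1 < dc p r.1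
    · have hc1 : Continuous fun η : ℝ => dc (fun i => p i + η) r'.1 := by unfold dc; fun_prop
      have hc2 : Continuous fun η : ℝ => dc (fun i => p i - η) r.1 := by unfold dc; fun_prop
      have := (hc1.continuousAt (x := 0)).eventually_lt (hc2.continuousAt (x := 0)) (by simpa using h)
      filter_upwards [this] with η hη _ using hη
    · exact Eventually.of_forall fun η h' => absurd h' h
  obtain ⟨η, h2, hη⟩ := ((h1.filter_mono (nhdsWithin_le_nhds (s := Set.Ioi 0))).and
    self_mem_nhdsWithin).exists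
  refine ⟨η, hη, ?_⟩
  have h3 : ∀ᶠ s in atTop, ∀ r ∈ R, ∀ r' ∈ R, dc p r'.1 < dc p r.1 →
      M * exp (s * dc (fun i => p i + η) r'.1) < exp (s * dc (fun i => p i - η) r.1) := by
    rw [eventually_all_finset]
    intro r hr
    rw [eventually_all_finset]
    intro r' hr'
    by_cases h : dc p r'.1 < dc p r.1
    · filter_upwards [ev_lt (h2 r hr r' hr' h) M] with s hs _ using hs
    · exact Eventually.of_forall fun η h' => absurd h' h
  filter_upwards [h3] with s hs
  intro x hB r hr r' hr' hlt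
  have h4 := hs r hr r' hr' hlt
  rw [exp_dc, exp_dc] at h4
  have hx : ∀ i, 0 ≤ x i := fun i => (exp_pos _).le.trans (hB i (Finset.notMem_empty i)).1
  have h5 : mon x r'.1 ≤ mon (fun i => exp (s * (p i + η))) r'.1 :=
    mon_le hx (fun i => (hB i (Finset.notMem_empty i)).2) _
  have h6 : mon (fun i => exp (s * (p i - η))) r.1 ≤ mon x r.1 :=
    mon_le (fun i => (exp_pos _).le) (fun i => (hB i (Finset.notMem_empty i)).1) _
  have h7 := mul_le_mul_of_nonneg_left h5 hM
  linarith

/-- total downhill activity -/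
noncomputable def down (R : Network d) (ν x : Fin d → ℝ) : ℝ :=
  ∑ r ∈ R, mon x r.1 * max (dc ν r.1 - dc ν r.2) 0

lemma down_nonneg (R : Network d) (ν : Fin d → ℝ) {x : Fin d → ℝ} (hx : ∀ i, 0 < x i) :
    0 ≤ down R ν x :=
  Finset.sum_nonneg fun r _ => mul_nonneg (mon_pos hx _).le (le_max_right _ _)

lemma path_bound (R : Network d) (r : (Fin d → ℕ) × (Fin d → ℕ)) (hr : r ∈ R) (z : Fin d → ℕ)
    (hz : Relation.ReflTransGen (fun a b => (a, b) ∈ R) z r.1) :
    ∃ m : ℝ, 0 ≤ m ∧ ∀ (M : ℝ) (ν x : Fin d → ℝ), (∀ i, 0 < x i) → Good R M ν x →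
      M * (mon x r.1 * max (dc ν z - dc ν r.1) 0) ≤ m * down R ν x := by
  induction hz using Relation.ReflTransGen.head_induction_on with
  | refl => exact ⟨0, le_rfl, fun M ν x _ _ => by simp⟩
  | @head a c hac _ ih =>
    obtain ⟨m, hm, ih⟩ := ih
    refine ⟨m + 1, by linarith, fun M ν x hx hG => ?_⟩
    have h1 := ih M ν x hx hG
    have hd := down_nonneg R ν hx
    have hmd := mul_nonneg hm hd
    by_cases hlt : dc ν r.1 < dc ν a
    · have h2 : M * mon x r.1 ≤ mon x a := hG (a, c) hac r hr hlt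
      have h3 : mon x a * max (dc ν a - dc ν c) 0 ≤ down R ν x :=
        Finset.single_le_sum (f := fun r => mon x r.1 * max (dc ν r.1 - dc ν r.2) 0)
          (fun r _ => mul_nonneg (mon_pos hx _).le (le_max_right _ _)) hac
      by_cases hM : 0 ≤ M
      · have h4 : max (dc ν a - dc ν r.1) 0 ≤
            max (dc ν c - dc ν r.1) 0 + max (dc ν a - dc ν c) 0 := by
          apply max_le
          · linarith [le_max_left (dc ν c - dc ν r.1) 0, le_max_left (dc ν a - dc ν c) 0]
          · linarith [le_max_right (dc ν c - dc ν r.1) 0, le_max_right (dc ν a - dc ν c) 0]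
        have h5 : 0 ≤ M * mon x r.1 := mul_nonneg hM (mon_pos hx _).le
        have h6 := mul_le_mul_of_nonneg_left h4 h5
        have h7 := mul_le_mul_of_nonneg_right h2 (le_max_right (dc ν a - dc ν c) 0)
        linarith
      · have : M * (mon x r.1 * max (dc ν a - dc ν r.1) 0) ≤ 0 :=
          mul_nonpos_of_nonpos_of_nonneg (not_le.1 hM).le
            (mul_nonneg (mon_pos hx _).le (le_max_right _ _))
        linarith
    · rw [max_eq_right (by linarith)]
      simp only [mul_zero]
      linarith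

lemma dot_reactionVector (ν : Fin d → ℝ) (r : (Fin d → ℕ) × (Fin d → ℕ)) :
    ∑ i, ν i * reactionVector r i = dc ν r.2 - dc ν r.1 := by
  unfold dc reactionVector
  rw [← Finset.sum_sub_distrib]
  exact Finset.sum_congr rfl fun i _ => by ring

lemma dot_field (R : Network d) (k : (Fin d → ℕ) × (Fin d → ℕ) → ℝ) (ν x : Fin d → ℝ) :
    ∑ i, ν i * field R k x i = ∑ r ∈ R, k r * mon x r.1 * (dc ν r.2 - dc ν r.1) := by
  unfold field
  simp only [Finset.sum_apply, Pi.smul_apply, smul_eq_mul, Finset.mul_sum]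
  rw [Finset.sum_comm]
  refine Finset.sum_congr rfl fun r _ => ?_
  rw [← dot_reactionVector, Finset.mul_sum]
  exact Finset.sum_congr rfl fun i _ => by unfold mon; ring

theorem key (R : Network d) (hR : IsWeaklyReversible R)
    (k : (Fin d → ℕ) × (Fin d → ℕ) → ℝ) (hk : ∀ r ∈ R, 0 < k r) :
    ∃ M : ℝ, 0 ≤ M ∧ ∀ ν x : Fin d → ℝ, (∀ i, 0 < x i) → Good R M ν x →
      (∑ i, ν i * field R k x i < 0 ∨ ∀ r ∈ R, ∑ i, ν i * reactionVector r i = 0) := by
  classical
  choose! m hm hb using fun r (hr : r ∈ R) => path_bound R r hr r.2 (hR r hr)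
  obtain ⟨κ, hκ, hκle⟩ := exists_pos_le (fun r : R => k r) (fun r => hk r r.2)
  set B : ℝ := ∑ r ∈ R, k r * m r with hB
  have hB0 : 0 ≤ B := Finset.sum_nonneg fun r hr => mul_nonneg (hk r hr).le (hm r hr)
  set M : ℝ := (B + 1) / κ with hM
  have hMpos : 0 < M := by positivity
  have hMκ : M * κ = B + 1 := by rw [hM]; field_simp
  refine ⟨M, hMpos.le, fun ν x hx hG => ?_⟩
  have hd := down_nonneg R ν hx
  have h1 : M * ∑ i, ν i * field R k x i ≤ B * down R ν x - M * κ * down R ν x := by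
    rw [dot_field, hB, Finset.sum_mul, Finset.mul_sum]
    conv_rhs => rw [down, Finset.mul_sum (a := M * κ), ← Finset.sum_sub_distrib]
    refine Finset.sum_le_sum fun r hr => ?_
    have h2 := hb r hr M ν x hx hG
    have h3 := mul_le_mul_of_nonneg_left h2 (hk r hr).le
    have h4 : dc ν r.2 - dc ν r.1 = max (dc ν r.2 - dc ν r.1) 0 - max (dc ν r.1 - dc ν r.2) 0 := by
      rcases le_total (dc ν r.1) (dc ν r.2) with h | h
      · rw [max_eq_left (by linarith), max_eq_right (by linarith)]; ring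
      · rw [max_eq_right (by linarith), max_eq_left (by linarith)]; ring
    have h5 : κ ≤ k r := hκle ⟨r, hr⟩
    have h6 : 0 ≤ M * (mon x r.1 * max (dc ν r.1 - dc ν r.2) 0) :=
      mul_nonneg hMpos.le (mul_nonneg (mon_pos hx _).le (le_max_right _ _))
    have h7 := mul_le_mul_of_nonneg_right h5 h6
    rw [h4]
    unfold down at h3
    nlinarith
  rcases hd.lt_or_eq with hpos | hzero
  · left
    rw [hMκ] at h1
    by_contra hge
    push Not at hge
    have := mul_nonneg hMpos.le hge
    linarith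
  · right
    intro r hr
    rw [dot_reactionVector]
    have h2 := hb r hr M ν x hx hG
    rw [← hzero, mul_zero] at h2
    have h3 : mon x r.1 * max (dc ν r.1 - dc ν r.2) 0 ≤ down R ν x :=
      Finset.single_le_sum (f := fun r => mon x r.1 * max (dc ν r.1 - dc ν r.2) 0)
        (fun r _ => mul_nonneg (mon_pos hx _).le (le_max_right _ _)) hr
    rw [← hzero] at h3
    have hmon := mon_pos hx r.1
    rcases lt_trichotomy (dc ν r.1) (dc ν r.2) with h | h | h
    · exfalso
      rw [max_eq_left (by linarith)] at h2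
      have := mul_pos hMpos (mul_pos hmon (sub_pos.2 h))
      linarith
    · linarith
    · exfalso
      rw [max_eq_left (by linarith)] at h3
      have := mul_pos hmon (sub_pos.2 h)
      linarith

end Crest.Agent.R92
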