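import Crest.Agent.R92.Key
import Crest.Agent.R92.Dyn

set_option autoImplicit false

namespace Crest.Agent.R92

open Filter Real Topology Set Crest.AnalysisR.MassAction

variable {d : ℕ}

lemma right_deriv {E : Type*} [NormedAddCommGroup E] [NormedSpace ℝ E] {x : ℝ → E} {v : E} {t : ℝ}
    (ht : 0 ≤ t) (h : HasDerivWithinAt x v (Ici 0) t) : HasDerivWithinAt x v (Ici t) t :=
  h.mono (Ici_subset_Ici.2 ht)

lemma stay_class (S : Submodule ℝ (Fin d → ℝ)) (x v : ℝ → Fin d → ℝ)
    (hx : ∀ t, 0 ≤ t → HasDerivWithinAt x (v t) (Ici 0) t) (hv : ∀ t, 0 ≤ t → v t ∈ S)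
    (t : ℝ) (ht : 0 ≤ t) : x t - x 0 ∈ S := by
  rw [← Subspace.forall_mem_dualAnnihilator_apply_eq_zero_iff]
  intro φ hφ
  rw [Submodule.mem_dualAnnihilator] at hφ
  let L : (Fin d → ℝ) →L[ℝ] ℝ := LinearMap.toContinuousLinearMap φ
  have hder : ∀ u, 0 ≤ u → HasDerivWithinAt (fun u => L (x u)) 0 (Ici 0) u := by
    intro u hu
    have := L.hasFDerivAt.comp_hasDerivWithinAt u (hx u hu)
    have h0 : L (v u) = 0 := hφ _ (hv u hu)
    rw [h0] at this
    exact this
  have := constant_of_has_deriv_right_zero (f := fun u => L (x u)) (a := 0) (b := t)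
    (fun u hu => ((hder u hu.1).continuousWithinAt).mono Icc_subset_Ici_self)
    (fun u hu => right_deriv hu.1 (hder u hu.1)) t ⟨ht, le_rfl⟩
  rw [map_sub, sub_eq_zero]
  exact this

lemma val_deriv (j : Cand (Fin d)) (s : ℝ) {x : ℝ → Fin d → ℝ} {v : Fin d → ℝ} {t : ℝ} {U : Set ℝ}
    (h : HasDerivWithinAt x v U t) :
    HasDerivWithinAt (fun u => val j s (x u)) (∑ i, j.1 i * v i) U t := by
  unfold val
  apply HasDerivWithinAt.add_const
  apply HasDerivWithinAt.fun_sum
  intro i _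
  exact (hasDerivWithinAt_pi.1 h i).const_mul _

lemma field_mem (R : Network d) (k : (Fin d → ℕ) × (Fin d → ℕ) → ℝ) (x : Fin d → ℝ) :
    field R k x ∈ stoichSubspace R := by
  unfold field
  refine Submodule.sum_mem _ fun r hr => Submodule.smul_mem _ _ ?_
  exact Submodule.subset_span ⟨r, hr, rfl⟩

lemma field_contDiff (R : Network d) (k : (Fin d → ℕ) × (Fin d → ℕ) → ℝ) :
    ContDiff ℝ 1 (field R k) := by
  unfold field
  refine ContDiff.sum fun r _ => ?_
  have h : ContDiff ℝ 1 fun x : Fin d → ℝ => k r * ∏ i, x i ^ r.1 i :=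
    contDiff_const.mul (contDiff_prod fun i _ => (contDiff_apply ℝ ℝ i).pow _)
  exact h.smul contDiff_const

/-- the polytope at scale `s` inside the affine class of `c` -/
def Kset (F : Set (Cand (Fin d))) (S : Submodule ℝ (Fin d → ℝ)) (c : Fin d → ℝ) (s : ℝ) :
    Set (Fin d → ℝ) := {x | (∀ j ∈ F, val j s x ≤ 0) ∧ x - c ∈ S}

lemma val_continuous (j : Cand (Fin d)) (s : ℝ) : Continuous (val j s) := by
  unfold val; fun_prop

lemma Kset_closed (F : Set (Cand (Fin d))) (S : Submodule ℝ (Fin d → ℝ)) (c : Fin d → ℝ) (s : ℝ) :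
    IsClosed (Kset F S c s) := by
  have h1 : IsClosed {x : Fin d → ℝ | ∀ j ∈ F, val j s x ≤ 0} := by
    simp only [ofPred_forall]
    exact isClosed_iInter fun j => isClosed_iInter fun _ =>
      isClosed_le (val_continuous j s) continuous_const
  have h2 : IsClosed {x : Fin d → ℝ | x - c ∈ S} :=
    S.closed_of_finiteDimensional.preimage (continuous_id.sub continuous_const)
  exact h1.inter h2

lemma Kset_convex (F : Set (Cand (Fin d))) (S : Submodule ℝ (Fin d → ℝ)) (c : Fin d → ℝ) (s : ℝ) :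
    Convex ℝ (Kset F S c s) := by
  intro x hx y hy a b ha hb hab
  refine ⟨fun j hj => ?_, ?_⟩
  · have h1 := hx.1 j hj
    have h2 := hy.1 j hj
    have : val j s (a • x + b • y) = a * val j s x + b * val j s y := by
      unfold val
      simp only [Pi.add_apply, Pi.smul_apply, smul_eq_mul]
      rw [mul_add, mul_add, Finset.mul_sum, Finset.mul_sum]
      have : ∑ i, j.1 i * (a * x i + b * y i) =
          ∑ i, a * (j.1 i * x i) + ∑ i, b * (j.1 i * y i) := by
        rw [← Finset.sum_add_distrib]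
        exact Finset.sum_congr rfl fun i _ => by ring
      rw [this]
      have : j.2 s = (a + b) * j.2 s := by rw [hab, one_mul]
      linarith
    rw [this]
    nlinarith [mul_nonneg ha (neg_nonneg.2 h1), mul_nonneg hb (neg_nonneg.2 h2)]
  · have : a • x + b • y - c = a • (x - c) + b • (y - c) := by
      rw [smul_sub, smul_sub]
      have : c = a • c + b • c := by rw [← add_smul, hab, one_smul]
      conv_lhs => rw [this]
      abel
    rw [this]
    exact S.add_mem (S.smul_mem _ hx.2) (S.smul_mem _ hy.2)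

lemma stay {F : Set (Cand (Fin d))} (hF : F.Finite) {S : Submodule ℝ (Fin d → ℝ)} {c : Fin d → ℝ}
    {s : ℝ} {f : (Fin d → ℝ) → Fin d → ℝ}
    (hin : ∀ z ∈ Kset F S c s, ∀ j ∈ F, val j s z = 0 → ∑ i, j.1 i * f z i < 0)
    (x v : ℝ → Fin d → ℝ) (hx : ∀ t, 0 ≤ t → HasDerivWithinAt x (v t) (Ici 0) t)
    (hv : ∀ t, 0 ≤ t → v t ∈ S) (hvf : ∀ t, 0 ≤ t → x t ∈ Kset F S c s → v t = f (x t))
    (h0 : x 0 ∈ Kset F S c s) : ∀ t, 0 ≤ t → x t ∈ Kset F S c s := by
  have hcl : ∀ t, 0 ≤ t → x t - c ∈ S := by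
    intro t ht
    have := S.add_mem (stay_class S x v hx hv t ht) h0.2
    rwa [sub_add_sub_cancel] at this
  intro t ht
  refine ⟨?_, hcl t ht⟩
  refine inv_family F hF (fun j u => val j s (x u)) (fun j u => ∑ i, j.1 i * v u i) 0
    (fun j _ u hu => (val_deriv j s (hx u hu)).continuousWithinAt)
    (fun j _ u hu => right_deriv hu (val_deriv j s (hx u hu))) ?_ h0.1 t ht
  intro u hu hall j hj hzero
  have hmem : x u ∈ Kset F S c s := ⟨hall, hcl u hu⟩
  simp only [hvf u hu hmem]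
  exact hin _ hmem j hj hzero

lemma absorb {F : Set (Cand (Fin d))} (hF : F.Finite) (hFc : ∀ j ∈ F, Continuous j.2)
    {S : Submodule ℝ (Fin d → ℝ)} {c : Fin d → ℝ} {s₀ s₁ : ℝ} (hs : s₀ ≤ s₁)
    {f : (Fin d → ℝ) → Fin d → ℝ} (hf : Continuous f)
    (hin : ∀ s, s₀ ≤ s → ∀ z ∈ Kset F S c s, ∀ j ∈ F, val j s z = 0 → ∑ i, j.1 i * f z i < 0)
    (hcpt : IsCompact (Kset F S c s₁))
    (x : ℝ → Fin d → ℝ) (hx : ∀ t, 0 ≤ t → HasDerivWithinAt x (f (x t)) (Ici 0) t)
    (hstay : ∀ t, 0 ≤ t → x t ∈ Kset F S c s₁) :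
    ∀ᶠ t in atTop, x t ∈ Kset F S c s₀ := by
  let B : Set ℝ := {s | ∀ ε : ℝ, 0 < ε → ∀ᶠ t in atTop, ∀ j ∈ F, val j s (x t) ≤ ε}
  have hnear : ∀ s ε : ℝ, 0 < ε → ∀ᶠ s' in 𝓝 s, ∀ j ∈ F, |j.2 s' - j.2 s| < ε := by
    intro s ε hε
    rw [eventually_all_finite hF]
    intro j hj
    have := Metric.tendsto_nhds.1 ((hFc j hj).continuousAt (x := s)) ε hε
    simpa [Real.dist_eq] using this
  have hval : ∀ (j : Cand (Fin d)) s s' z, val j s' z = val j s z + (j.2 s' - j.2 s) := by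
    intro j s s' z; unfold val; ring
  have hclosed : IsClosed B := by
    apply isClosed_of_closure_subset
    intro s hs ε hε
    rw [mem_closure_iff_frequently] at hs
    obtain ⟨s', hs'B, hs'⟩ := (hs.and_eventually (hnear s (ε / 2) (half_pos hε))).exists
    filter_upwards [hs'B (ε / 2) (half_pos hε)] with t ht j hj
    have h1 := ht j hj
    have h2 := abs_lt.1 (hs' j hj)
    rw [hval j s s'] at h1
    linarith [h2.1]
  have himp : ∀ s, s₀ ≤ s → s ∈ B →
      ∃ ε : ℝ, 0 < ε ∧ ∀ᶠ t in atTop, ∀ j ∈ F, val j s (x t) ≤ -ε := by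
    intro s hs hB
    have h1 : ∀ᶠ ε in 𝓝 (0 : ℝ), ∀ j ∈ F, ∀ z ∈ Kset F S c s₁,
        (∃ j' ∈ F, ε < val j' s z) ∨ val j s z < -ε ∨ ∑ i, j.1 i * f z i < -ε := by
      rw [eventually_all_finite hF]
      intro j hj
      apply hcpt.eventually_forall_of_forall_eventually
        (P := fun ε z => (∃ j' ∈ F, ε < val j' s z) ∨ val j s z < -ε ∨ ∑ i, j.1 i * f z i < -ε)
      intro z hz
      by_cases hall : ∀ j' ∈ F, val j' s z ≤ 0
      · rcases (hall j hj).lt_or_eq with hlt | heq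
        · have hc1 : Continuous fun p : ℝ × (Fin d → ℝ) => val j s p.2 :=
            (val_continuous j s).comp continuous_snd
          have hc2 : Continuous fun p : ℝ × (Fin d → ℝ) => -p.1 := by fun_prop
          filter_upwards [(hc1.continuousAt (x := (0, z))).eventually_lt hc2.continuousAt
            (by simpa using hlt)] with p hp using Or.inr (Or.inl hp)
        · have hlt := hin s hs z ⟨hall, hz.2⟩ j hj heq
          have hc1 : Continuous fun p : ℝ × (Fin d → ℝ) => ∑ i, j.1 i * f p.2 i := by fun_prop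
          have hc2 : Continuous fun p : ℝ × (Fin d → ℝ) => -p.1 := by fun_prop
          filter_upwards [(hc1.continuousAt (x := (0, z))).eventually_lt hc2.continuousAt
            (by simpa using hlt)] with p hp using Or.inr (Or.inr hp)
      · push Not at hall
        obtain ⟨j', hj', hlt⟩ := hall
        have hc1 : Continuous fun p : ℝ × (Fin d → ℝ) => val j' s p.2 :=
          (val_continuous j' s).comp continuous_snd
        filter_upwards [(continuous_fst.continuousAt (x := ((0 : ℝ), z))).eventually_lt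
          hc1.continuousAt (by simpa using hlt)] with p hp using Or.inl ⟨j', hj', hp⟩
    obtain ⟨ε, h2, hε⟩ := ((h1.filter_mono (nhdsWithin_le_nhds (s := Set.Ioi 0))).and
      self_mem_nhdsWithin).exists
    have hε' : 0 < ε := hε
    refine ⟨ε, hε', ?_⟩
    rw [eventually_all_finite hF]
    intro j hj
    obtain ⟨T, hT⟩ := eventually_atTop.1 ((hB ε hε').and (eventually_ge_atTop 0))
    have hT0 : 0 ≤ T := (hT T le_rfl).2
    have := eventually_nonpos (fun u => val j s (x u) + ε) (fun u => ∑ i, j.1 i * f (x u) i) T ε hε'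
      (fun u hu => (((val_deriv j s (hx u (hT0.trans hu))).add_const ε).continuousWithinAt).mono
        (Ici_subset_Ici.2 hT0))
      (fun u hu => right_deriv (hT0.trans hu) ((val_deriv j s (hx u (hT0.trans hu))).add_const ε))
      (fun u hu hge => by
        rcases h2 j hj (x u) (hstay u (hT0.trans hu)) with ⟨j', hj', h⟩ | h | h
        · linarith [(hT u hu).1 j' hj']
        · linarith
        · exact h.le)
    filter_upwards [this] with t ht
    linarith
  have h1 : s₁ ∈ B := by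
    intro ε hε
    filter_upwards [eventually_ge_atTop 0] with t ht j hj
    exact ((hstay t ht).1 j hj).trans hε.le
  have h0 : s₀ ∈ B := by
    refine IsClosed.mem_of_ge_of_forall_exists_lt (hclosed.inter isClosed_Icc) h1 hs ?_
    rintro s ⟨hsB, hs0, -⟩
    obtain ⟨ε, hε, hev⟩ := himp s hs0.le hsB
    obtain ⟨s', hs'1, hs'2⟩ := (((hnear s ε hε).filter_mono (nhdsWithin_le_nhds (s := Iio s))).and
      (Ico_mem_nhdsLT hs0)).exists
    refine ⟨s', ?_, hs'2⟩
    intro δ hδ
    filter_upwards [hev] with t ht j hj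
    rw [hval j s s']
    linarith [ht j hj, (abs_lt.1 (hs'1 j hj)).2]
  obtain ⟨ε, hε, hev⟩ := himp s₀ le_rfl h0
  filter_upwards [hev, eventually_ge_atTop 0] with t ht ht0
  exact ⟨fun j hj => by linarith [ht j hj], (hstay t ht0).2⟩

/-- coordinatewise truncation -/
def clamp (B : ℝ) (x : Fin d → ℝ) : Fin d → ℝ := fun i => max (-B) (min B (x i))

lemma clamp_lip (B : ℝ) : LipschitzWith 1 (clamp (d := d) B) := by
  refine LipschitzWith.of_dist_le_mul fun x y => ?_
  rw [NNReal.coe_one, one_mul, dist_pi_le_iff dist_nonneg]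
  intro i
  have h1 : LipschitzWith 1 (fun u : ℝ => max (-B) (min B u)) :=
    (LipschitzWith.id.const_min B).const_max (-B)
  have := h1.dist_le_mul (x i) (y i)
  rw [NNReal.coe_one, one_mul] at this
  exact this.trans (dist_le_pi_dist x y i)

lemma clamp_mem {B : ℝ} (hB : 0 ≤ B) (x : Fin d → ℝ) : clamp B x ∈ Metric.closedBall 0 B := by
  rw [mem_closedBall_zero_iff, pi_norm_le_iff_of_nonneg hB]
  intro i
  rw [Real.norm_eq_abs, abs_le]
  exact ⟨le_max_left _ _, max_le (by linarith) (min_le_left _ _)⟩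

lemma clamp_eq {B : ℝ} {x : Fin d → ℝ} (h : ∀ i, -B ≤ x i ∧ x i ≤ B) : clamp B x = x := by
  ext i
  unfold clamp
  rw [min_eq_right (h i).2, max_eq_right (h i).1]

theorem main (R : Network d) (hR : IsWeaklyReversible R)
    (k : (Fin d → ℕ) × (Fin d → ℕ) → ℝ) (hk : ∀ r ∈ R, 0 < k r)
    (c : Fin d → ℝ) (hc : ∀ i, 0 < c i) :
    ∃ K : Set (Fin d → ℝ), K ⊆ positiveClass R c ∧ K.Nonempty ∧ IsCompact K ∧ Convex ℝ K ∧
      (∀ x : ℝ → (Fin d → ℝ), IsForwardSolution (field R k) x → x 0 ∈ K →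
        ∀ t : ℝ, 0 ≤ t → x t ∈ K) ∧
      (∀ x₀ ∈ positiveClass R c,
        (∃ x : ℝ → (Fin d → ℝ), IsForwardSolution (field R k) x ∧ x 0 = x₀) ∧
        (∀ x x' : ℝ → (Fin d → ℝ), IsForwardSolution (field R k) x →
          IsForwardSolution (field R k) x' → x 0 = x₀ → x' 0 = x₀ →
          ∀ t : ℝ, 0 ≤ t → x t = x' t) ∧
        (∀ x : ℝ → (Fin d → ℝ), IsForwardSolution (field R k) x → x 0 = x₀ →
          (∀ t : ℝ, 0 ≤ t → ∀ i, 0 < x t i) ∧
          ∃ T : ℝ, 0 ≤ T ∧ ∀ t : ℝ, T ≤ t → x t ∈ K)) := by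
  obtain ⟨M, hM, hkey⟩ := key R hR k hk
  obtain ⟨F, hF, hFc, hbox, hint, hgood⟩ := geo (Good R M) (good_base R M hM)
  obtain ⟨s₀, hs₀⟩ := eventually_atTop.1 (hbox.and (hgood.and (hint c hc)))
  set S := stoichSubspace R with hS
  have hpos : ∀ s, s₀ ≤ s → ∀ z ∈ Kset F S c s, ∀ i, 0 < z i := fun s hs z hz i =>
    (exp_pos _).trans_le ((hs₀ s hs).1 z hz.1 i).1
  have hbd : ∀ s, s₀ ≤ s → ∀ z ∈ Kset F S c s, ∀ i, -exp (s * 1) ≤ z i ∧ z i ≤ exp (s * 1) :=
    fun s hs z hz i => ⟨by linarith [hpos s hs z hz i, exp_pos (s * 1)], ((hs₀ s hs).1 z hz.1 i).2⟩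
  have hball : ∀ s, s₀ ≤ s → Kset F S c s ⊆ Metric.closedBall 0 (exp (s * 1)) := by
    intro s hs z hz
    rw [← clamp_eq (hbd s hs z hz)]
    exact clamp_mem (exp_pos _).le z
  have hcpt : ∀ s, s₀ ≤ s → IsCompact (Kset F S c s) := fun s hs =>
    (isCompact_closedBall _ _).of_isClosed_subset (Kset_closed F S c s) (hball s hs)
  have hin : ∀ s, s₀ ≤ s → ∀ z ∈ Kset F S c s, ∀ j ∈ F, val j s z = 0 →
      ∑ i, j.1 i * field R k z i < 0 := by
    intro s hs z hz j hj hzero
    rcases hkey j.1 z (hpos s hs z hz) ((hs₀ s hs).2.1 z hz.1 j hj hzero) with h | h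
    · exact h
    · exfalso
      have h1 : ∀ v ∈ S, ∑ i, j.1 i * v i = 0 := by
        intro v hv
        induction hv using Submodule.span_induction with
        | mem v hv => obtain ⟨r, hr, rfl⟩ := hv; exact h r hr
        | zero => simp
        | add u v _ _ hu hv => simp [mul_add, Finset.sum_add_distrib, hu, hv]
        | smul a v _ hv =>
          simp only [Pi.smul_apply, smul_eq_mul]
          have : ∑ i, j.1 i * (a * v i) = a * ∑ i, j.1 i * v i := by
            rw [Finset.mul_sum]; exact Finset.sum_congr rfl fun i _ => by ring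
          rw [this, hv, mul_zero]
      have h2 := h1 _ hz.2
      have h3 := (hs₀ s hs).2.2 j hj
      simp only [Pi.sub_apply, mul_sub, Finset.sum_sub_distrib] at h2
      unfold val at hzero h3
      linarith
  have hstay : ∀ s, s₀ ≤ s → ∀ x : ℝ → (Fin d → ℝ), IsForwardSolution (field R k) x →
      x 0 ∈ Kset F S c s → ∀ t : ℝ, 0 ≤ t → x t ∈ Kset F S c s := fun s hs x hx h0 =>
    stay hF (hin s hs) x (fun t => field R k (x t)) hx (fun t _ => field_mem R k _)
      (fun _ _ _ => rfl) h0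
  refine ⟨Kset F S c s₀, fun z hz => ⟨hpos s₀ le_rfl z hz, hz.2⟩,
    ⟨c, fun j hj => ((hs₀ s₀ le_rfl).2.2 j hj).le, by simp⟩, hcpt s₀ le_rfl,
    Kset_convex F S c s₀, hstay s₀ le_rfl, ?_⟩
  intro x₀ hx₀
  obtain ⟨s₁, h1, hs₁⟩ := ((hint x₀ hx₀.1).and (eventually_ge_atTop s₀)).exists
  have hx₀K : x₀ ∈ Kset F S c s₁ := ⟨fun j hj => (h1 j hj).le, hx₀.2⟩
  set B : ℝ := exp (s₁ * 1) with hB
  have hBpos : 0 < B := exp_pos _
  obtain ⟨Lip, hLip⟩ := ((field_contDiff R k).contDiffOn (s := Metric.closedBall 0 B)).exists_lipschitzOnWith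
    one_ne_zero (convex_closedBall _ _) (isCompact_closedBall _ _)
  refine ⟨?_, ?_, ?_⟩
  · obtain ⟨L, hL⟩ := (isCompact_closedBall (0 : Fin d → ℝ) B).exists_bound_of_continuousOn
      (field_contDiff R k).continuous.continuousOn
    have hL0 : 0 ≤ L := (norm_nonneg _).trans (hL 0 (Metric.mem_closedBall_self hBpos.le))
    have hlip : LipschitzWith (Lip * 1) (fun z => field R k (clamp B z)) := by
      rw [← lipschitzOnWith_univ]
      exact hLip.comp (clamp_lip B).lipschitzOnWith (fun z _ => clamp_mem hBpos.le z)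
    obtain ⟨x, hx0, hx⟩ := exists_global (fun z => field R k (clamp B z)) _ ⟨L, hL0⟩ hlip
      (fun z => hL _ (clamp_mem hBpos.le z)) x₀
    have hst := stay hF (hin s₁ hs₁) x (fun t => field R k (clamp B (x t))) hx
      (fun t _ => field_mem R k _)
      (fun t _ ht => by rw [clamp_eq (B := B) (hbd s₁ hs₁ _ ht)]) (hx0 ▸ hx₀K)
    refine ⟨x, fun t ht => ?_, hx0⟩
    have := hx t ht
    rwa [clamp_eq (hbd s₁ hs₁ _ (hst t ht))] at this
  · intro x x' hx hx' h0 h0' t ht
    have hst := hstay s₁ hs₁ x hx (h0 ▸ hx₀K)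
    have hst' := hstay s₁ hs₁ x' hx' (h0' ▸ hx₀K)
    exact ODE_solution_unique_of_mem_Icc_right (v := fun _ => field R k)
      (s := fun _ => Metric.closedBall 0 B) (K := Lip) (a := 0) (b := t) (fun _ _ => hLip)
      (fun u hu => ((hx u hu.1).continuousWithinAt).mono Icc_subset_Ici_self)
      (fun u hu => right_deriv hu.1 (hx u hu.1)) (fun u hu => hball s₁ hs₁ (hst u hu.1))
      (fun u hu => ((hx' u hu.1).continuousWithinAt).mono Icc_subset_Ici_self)
      (fun u hu => right_deriv hu.1 (hx' u hu.1)) (fun u hu => hball s₁ hs₁ (hst' u hu.1))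
      (h0.trans h0'.symm) ⟨ht, le_rfl⟩
  · intro x hx h0
    have hst := hstay s₁ hs₁ x hx (h0 ▸ hx₀K)
    refine ⟨fun t ht => hpos s₁ hs₁ _ (hst t ht), ?_⟩
    have := absorb hF hFc hs₁ (field_contDiff R k).continuous hin (hcpt s₁ hs₁) x hx hst
    obtain ⟨T, hT⟩ := eventually_atTop.1 (this.and (eventually_ge_atTop 0))
    exact ⟨T, (hT T le_rfl).2, fun t ht => (hT t ht).1⟩

end Crest.Agent.R92
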